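import Vale.Agent.P176.Poly

open CategoryTheory

namespace Vale.Agent.Results.P176.Disproof

universe u

/-- Projective dimension of a left module, valued in `ℕ∞`, with the convention `pd 0 = 0`. -/
noncomputable def pd {A : Type u} [Ring A] (N : ModuleCat.{u} A) : ℕ∞ :=
  (projectiveDimension N).unbotD 0

/-- The little finitistic dimension: supremum of the projective dimensions of the finitely
generated left modules of finite projective dimension. -/
noncomputable def findim (A : Type u) [Ring A] : ℕ∞ :=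
  ⨆ (N : ModuleCat.{u} A) (_ : Module.Finite A N) (_ : pd N < ⊤), pd N

theorem result :
    (∀ (k : Type u) [Field k] [CharZero k],
      ∃ (A : Type u) (_ : Ring A) (_ : Algebra k A), FiniteDimensional k A ∧ findim A = ⊤ ∧
        ∀ n : ℕ, ∃ N : ModuleCat.{u} A, Module.Finite A N ∧ pd N = ((4 + 2 * n : ℕ) : ℕ∞)) ∧
    (¬ ∀ (k : Type) [Field k] (A : Type) [Ring A] [Algebra k A],
      FiniteDimensional k A → findim A < ⊤) ∧
    (¬ ∀ (R : Type) [CommRing R] [IsArtinianRing R] (A : Type) [Ring A] [Algebra R A],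
      Module.Finite R A → findim A < ⊤) := by
  have key : ∀ (A : Type u) [Ring A], (∀ n : ℕ, ∃ N : ModuleCat.{u} A, Module.Finite A N ∧
      pd N = ((4 + 2 * n : ℕ) : ℕ∞)) → findim A = ⊤ := by
    intro A _ h
    refine ENat.eq_top_iff_forall_ge.2 fun n => ?_
    obtain ⟨N, hN, hN'⟩ := h n
    refine le_trans ?_ (le_iSup_of_le N (le_iSup_of_le hN (le_iSup_of_le
      (by rw [hN']; exact ENat.coe_lt_top _) le_rfl)))
    rw [hN']
    exact_mod_cast (by omega : n ≤ 4 + 2 * n)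
  have hQ : ∃ (A : Type) (_ : Ring A) (_ : Algebra ℚ A), FiniteDimensional ℚ A ∧
      findim A = ⊤ := by
    obtain ⟨A, i1, i2, hA, h⟩ := Vale.Agent.P176.main ℚ
    refine ⟨A, i1, i2, hA, ENat.eq_top_iff_forall_ge.2 fun n => ?_⟩
    obtain ⟨N, hN, hN'⟩ := h n
    have h1 : pd N = ((4 + 2 * n : ℕ) : ℕ∞) := by rw [pd, hN']; rfl
    refine le_trans ?_ (le_iSup_of_le N (le_iSup_of_le hN (le_iSup_of_le
      (by rw [h1]; exact ENat.coe_lt_top _) le_rfl)))
    rw [h1]
    exact_mod_cast (by omega : n ≤ 4 + 2 * n)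
  refine ⟨fun k _ _ => ?_, fun h => ?_, fun h => ?_⟩
  · obtain ⟨A, i1, i2, hA, h⟩ := Vale.Agent.P176.main k
    have h' : ∀ n : ℕ, ∃ N : ModuleCat.{u} A, Module.Finite A N ∧
        pd N = ((4 + 2 * n : ℕ) : ℕ∞) := fun n => by
      obtain ⟨N, hN, hN'⟩ := h n
      exact ⟨N, hN, by rw [pd, hN']; rfl⟩
    exact ⟨A, i1, i2, hA, key A h', h'⟩
  · obtain ⟨A, i1, i2, hA, h'⟩ := hQ
    exact (h ℚ A hA).ne h'
  · obtain ⟨A, i1, i2, hA, h'⟩ := hQ
    exact (h ℚ A hA).ne h'

end Vale.Agent.Results.P176.Disproof
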