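import Vale.Agent.P195.Findim
import Vale.Agent.P195.Weyl

namespace Vale.Agent.Results.P176.FromNakayama

open CategoryTheory

/-- There is a finite-dimensional algebra `A` over the rationals which has, for every `n`, a
finitely generated left module of projective dimension exactly `n + 1`. -/
theorem result : ∃ (A : Type) (_ : Ring A) (_ : Algebra ℚ A) (_ : Module.Finite ℚ A),
    ∀ n : ℕ, ∃ (N : Type) (_ : AddCommGroup N) (_ : Module A N) (_ : Module.Finite A N),
      projectiveDimension (ModuleCat.of A N) = ((n + 1 : ℕ) : WithBot ℕ∞) := by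
  obtain ⟨W, _, _, ⟨D⟩⟩ := Vale.Agent.P195.exists_wdata
  have := Vale.Agent.P195.WData.R_finite (D := D)
  obtain ⟨A, _, _, hA, h⟩ := Vale.Agent.P195.findim_of_null
    (Vale.Agent.P195.WData.F_finite (D.pp.lf_N _)) Vale.Agent.P195.WData.null_X_R
    Vale.Agent.P195.WData.X_ne_zero
  refine ⟨A, inferInstance, inferInstance, hA, fun n => ?_⟩
  obtain ⟨N, h1, h2⟩ := h n
  exact ⟨N, inferInstance, inferInstance, h1, h2⟩

end Vale.Agent.Results.P176.FromNakayama
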